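import Mathlib

/-!
# P131: iterates of a polynomial at an element of a Banach algebra
-/

open Filter Topology Polynomial

namespace Vale.Agent.P131.Basin

section Bd

set_option linter.unusedSectionVars false

variable {R : Type*} [NormedRing R] [NormedAlgebra ℂ R]

/-- `x` is bounded by `s` in the norm adapted to `c` -/
def E (c : R) (ρ : ℝ) (x : R) (s : ℝ) : Prop := ∀ n : ℕ, ‖x * c ^ n‖ ≤ s * ρ ^ n

/-- right multiplication by `y` has norm at most `m` in the norm adapted to `c` -/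
def Bd (c : R) (ρ : ℝ) (y : R) (m : ℝ) : Prop := ∀ x s, 0 ≤ s → E c ρ x s → E c ρ (x * y) (m * s)

variable {c : R} {ρ : ℝ}

theorem Bd.self : Bd c ρ c ρ := by
  intro x s _ h n
  have h1 := h (n + 1)
  rw [pow_succ', ← mul_assoc] at h1
  calc ‖x * c * c ^ n‖ ≤ s * ρ ^ (n + 1) := h1
    _ = ρ * s * ρ ^ n := by ring

theorem Bd.one : Bd c ρ 1 1 := by
  intro x s _ h
  rwa [mul_one, one_mul]

theorem Bd.mul {y z : R} {m k : ℝ} (hm : 0 ≤ m) (h1 : Bd c ρ y m) (h2 : Bd c ρ z k) :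
    Bd c ρ (y * z) (k * m) := by
  intro x s hs h
  rw [← mul_assoc, mul_assoc k]
  exact h2 _ _ (mul_nonneg hm hs) (h1 x s hs h)

theorem Bd.add {y z : R} {m k : ℝ} (h1 : Bd c ρ y m) (h2 : Bd c ρ z k) :
    Bd c ρ (y + z) (m + k) := by
  intro x s hs h n
  rw [mul_add, add_mul]
  have h3 := h1 x s hs h n
  have h4 := h2 x s hs h n
  have h5 := norm_add_le (x * y * c ^ n) (x * z * c ^ n)
  have h6 : (m + k) * s * ρ ^ n = m * s * ρ ^ n + k * s * ρ ^ n := by ring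
  rw [h6]
  linarith

theorem Bd.smul {y : R} {m : ℝ} (a : ℂ) (h : Bd c ρ y m) : Bd c ρ (a • y) (‖a‖ * m) := by
  intro x s hs h1 n
  rw [mul_smul_comm, smul_mul_assoc, norm_smul]
  have h2 := mul_le_mul_of_nonneg_left (h x s hs h1 n) (norm_nonneg a)
  calc ‖a‖ * ‖x * y * c ^ n‖ ≤ ‖a‖ * (m * s * ρ ^ n) := h2
    _ = ‖a‖ * m * s * ρ ^ n := by ring

theorem Bd.zero : Bd c ρ (0 : R) 0 := by
  intro x s _ _ n
  simp

theorem Bd.pow {y : R} {m : ℝ} (hm : 0 ≤ m) (h : Bd c ρ y m) : ∀ n : ℕ, Bd c ρ (y ^ n) (m ^ n)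
  | 0 => by rw [pow_zero, pow_zero]; exact Bd.one
  | n + 1 => by
    rw [pow_succ, pow_succ']
    exact (Bd.pow hm h n).mul (pow_nonneg hm n) h

theorem Bd.sum {ι : Type*} (t : Finset ι) (y : ι → R) (m : ι → ℝ)
    (h : ∀ i ∈ t, Bd c ρ (y i) (m i)) : Bd c ρ (∑ i ∈ t, y i) (∑ i ∈ t, m i) := by
  classical
  induction t using Finset.induction_on with
  | empty => simpa using Bd.zero
  | insert i t hi ih =>
    rw [Finset.sum_insert hi, Finset.sum_insert hi]
    exact (h i (Finset.mem_insert_self i t)).add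
      (ih fun j hj => h j (Finset.mem_insert_of_mem hj))

/-- the majorant of a polynomial -/
noncomputable def maj (h : ℂ[X]) (m : ℝ) : ℝ :=
  ∑ i ∈ Finset.range (h.natDegree + 1), ‖h.coeff i‖ * m ^ i

theorem maj_nonneg (h : ℂ[X]) {m : ℝ} (hm : 0 ≤ m) : 0 ≤ maj h m :=
  Finset.sum_nonneg fun _ _ => by positivity

theorem maj_mono (h : ℂ[X]) {m m' : ℝ} (hm : 0 ≤ m) (hmm : m ≤ m') : maj h m ≤ maj h m' :=
  Finset.sum_le_sum fun i _ => by gcongr

theorem Bd.aeval {y : R} {m : ℝ} (hm : 0 ≤ m) (h : Bd c ρ y m) (q : ℂ[X]) :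
    Bd c ρ (aeval y q) (maj q m) := by
  rw [aeval_eq_sum_range]
  exact Bd.sum _ _ _ fun i _ => (h.pow hm i).smul _

theorem norm_eval_le (h : ℂ[X]) (z : ℂ) : ‖h.eval z‖ ≤ maj h ‖z‖ := by
  rw [eval_eq_sum_range]
  refine (norm_sum_le _ _).trans (Finset.sum_le_sum fun i _ => ?_)
  rw [norm_mul, norm_pow]

theorem exists_rho (h : ℂ[X]) (h0 : ‖h.coeff 0‖ < 1) : ∃ ρ : ℝ, 0 < ρ ∧ maj h ρ < 1 := by
  have hc : Continuous (maj h) := by
    unfold maj
    fun_prop
  have h1 : maj h 0 = ‖h.coeff 0‖ := by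
    unfold maj
    rw [Finset.sum_range_succ']
    simp
  have h2 : Tendsto (maj h) (𝓝[>] 0) (𝓝 (maj h 0)) := hc.continuousAt.mono_left nhdsWithin_le_nhds
  rw [h1] at h2
  obtain ⟨ρ, hρ1, hρ2⟩ := ((h2.eventually (gt_mem_nhds h0)).and self_mem_nhdsWithin).exists
  exact ⟨ρ, hρ2, hρ1⟩

end Bd

section Iter

variable {R : Type*} [NormedRing R] [NormedAlgebra ℂ R]

/-- the iterates `b, p(b), p(p(b)), …` -/
noncomputable def it (p : ℂ[X]) (b : R) : ℕ → R
  | 0 => b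
  | n + 1 => aeval (it p b n) p

theorem it_add (p : ℂ[X]) (b : R) (m : ℕ) : ∀ n, it p b (m + n) = it p (it p b m) n
  | 0 => rfl
  | n + 1 => by
    show aeval (it p b (m + n)) p = aeval (it p (it p b m) n) p
    rw [it_add p b m n]

/-- near an attracting fixed point at `0` -/
theorem norm_it_le {p h : ℂ[X]} (hp : p = h * X) {c : R} {ρ θ M : ℝ} (hρ : 0 < ρ)
    (hθ : maj h ρ ≤ θ) (hθ1 : θ ≤ 1) (hM : 0 ≤ M) (hc : E c ρ 1 M) :
    ∀ j, ‖it p c j‖ ≤ θ ^ j * ρ * M := by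
  have hθ0 : 0 ≤ θ := (maj_nonneg h hρ.le).trans hθ
  have key : ∀ j, Bd c ρ (it p c j) (θ ^ j * ρ) := by
    intro j
    induction j with
    | zero =>
      rw [pow_zero, one_mul]
      exact Bd.self
    | succ j ih =>
      have h1 : θ ^ j * ρ ≤ ρ := by
        have := pow_le_one₀ (n := j) hθ0 hθ1
        nlinarith
      have h0 : 0 ≤ θ ^ j * ρ := by positivity
      have h2 : it p c (j + 1) = aeval (it p c j) h * it p c j := by
        show aeval (it p c j) p = _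
        rw [hp, map_mul, aeval_X]
      rw [h2]
      have h3 := (ih.aeval h0 h).mul (maj_nonneg h h0) ih
      intro x s hs hx n
      refine (h3 x s hs hx n).trans ?_
      have h4 : maj h (θ ^ j * ρ) ≤ θ := (maj_mono h h0 h1).trans hθ
      have h5 : θ ^ j * ρ * maj h (θ ^ j * ρ) ≤ θ ^ (j + 1) * ρ := by
        calc θ ^ j * ρ * maj h (θ ^ j * ρ) ≤ θ ^ j * ρ * θ := mul_le_mul_of_nonneg_left h4 h0
          _ = θ ^ (j + 1) * ρ := by ring
      have h6 : 0 ≤ s * ρ ^ n := by positivity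
      calc θ ^ j * ρ * maj h (θ ^ j * ρ) * s * ρ ^ n
          = θ ^ j * ρ * maj h (θ ^ j * ρ) * (s * ρ ^ n) := by ring
        _ ≤ θ ^ (j + 1) * ρ * (s * ρ ^ n) := mul_le_mul_of_nonneg_right h5 h6
        _ = θ ^ (j + 1) * ρ * s * ρ ^ n := by ring
  intro j
  have h1 := key j 1 M hM hc 0
  simpa using h1

end Iter

section Spec

variable {R : Type*} [NormedRing R] [NormedAlgebra ℂ R] [CompleteSpace R]

theorem exists_bound {c : R} {ρ : NNReal} (h : spectralRadius ℂ c < ρ) :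
    ∃ M : ℝ, 0 ≤ M ∧ E c ρ 1 M := by
  have h1 := (spectrum.pow_nnnorm_pow_one_div_tendsto_nhds_spectralRadius c).eventually
    (gt_mem_nhds h)
  obtain ⟨N, hN⟩ := eventually_atTop.1 (h1.and (eventually_ge_atTop 1))
  have hρ : 0 < (ρ : ℝ) := by
    have : (0 : ENNReal) < ρ := lt_of_le_of_lt bot_le h
    exact_mod_cast this
  have h2 : ∀ n, N ≤ n → ‖c ^ n‖ ≤ (ρ : ℝ) ^ n := by
    intro n hn
    obtain ⟨h3, h4⟩ := hN n hn
    have hn0 : (0 : ℝ) < n := by exact_mod_cast h4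
    have h5 : (‖c ^ n‖₊ : ENNReal) ≤ (ρ : ENNReal) ^ n := by
      have h6 : ((‖c ^ n‖₊ : ENNReal) ^ (1 / n : ℝ)) ^ (n : ℝ) ≤ (ρ : ENNReal) ^ (n : ℝ) :=
        ENNReal.rpow_le_rpow h3.le hn0.le
      rwa [← ENNReal.rpow_mul, one_div, inv_mul_cancel₀ hn0.ne', ENNReal.rpow_one,
        ENNReal.rpow_natCast] at h6
    exact_mod_cast h5
  refine ⟨1 + ∑ n ∈ Finset.range N, ‖c ^ n‖ / (ρ : ℝ) ^ n, ?_, ?_⟩
  · have : 0 ≤ ∑ n ∈ Finset.range N, ‖c ^ n‖ / (ρ : ℝ) ^ n := Finset.sum_nonneg fun _ _ => by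
      positivity
    linarith
  · intro n
    rw [one_mul]
    have h6 : 0 < (ρ : ℝ) ^ n := by positivity
    rcases le_or_gt N n with hn | hn
    · have h5 : 0 ≤ ∑ n ∈ Finset.range N, ‖c ^ n‖ / (ρ : ℝ) ^ n := Finset.sum_nonneg fun _ _ => by
        positivity
      have h7 := h2 n hn
      nlinarith
    · have h5 := Finset.single_le_sum (f := fun n => ‖c ^ n‖ / (ρ : ℝ) ^ n)
        (fun _ _ => by positivity) (Finset.mem_range.2 hn)
      have h7 : ‖c ^ n‖ = ‖c ^ n‖ / (ρ : ℝ) ^ n * (ρ : ℝ) ^ n := by field_simp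
      rw [h7]
      refine mul_le_mul_of_nonneg_right ?_ h6.le
      linarith

theorem spectrum_it [Nontrivial R] (p : ℂ[X]) (b : R) :
    ∀ k, spectrum ℂ (it p b k) = (fun z => p.eval z)^[k] '' spectrum ℂ b
  | 0 => by simp [it]
  | k + 1 => by
    show spectrum ℂ (aeval (it p b k) p) = _
    rw [spectrum.map_polynomial_aeval, spectrum_it p b k, Function.iterate_succ', Set.image_comp]

/-- iterates of a polynomial with an attracting fixed point at `0` -/
theorem tendsto_it_zero [Nontrivial R] (p : ℂ[X]) (b : R) (hp0 : p.eval 0 = 0)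
    (hp1 : ‖p.derivative.eval 0‖ < 1)
    (hσ : ∀ z ∈ spectrum ℂ b, Tendsto (fun k => (fun z => p.eval z)^[k] z) atTop (𝓝 0)) :
    Tendsto (fun k => ‖it p b k‖) atTop (𝓝 0) := by
  obtain ⟨h, hh⟩ : ∃ h, h = p.divX := ⟨_, rfl⟩
  have hp : p = h * X := by
    have h1 := p.divX_mul_X_add
    rw [coeff_zero_eq_eval_zero, hp0, map_zero, add_zero] at h1
    rw [hh, h1]
  have hc0 : ‖h.coeff 0‖ < 1 := by
    have h1 : p.derivative.eval 0 = h.coeff 0 := by
      rw [hp, derivative_mul, derivative_X, mul_one, eval_add, eval_mul, eval_X, mul_zero, zero_add,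
        coeff_zero_eq_eval_zero]
    rwa [h1] at hp1
  obtain ⟨ρ, hρ, hρ1⟩ := exists_rho h hc0
  set f : ℂ → ℂ := fun z => p.eval z with hf
  have hfc : Continuous f := p.continuous
  have hfρ : ∀ z, ‖z‖ < ρ → ‖f z‖ < ρ := by
    intro z hz
    have h1 : f z = h.eval z * z := by rw [hf, hp]; simp
    rw [h1, norm_mul]
    have h2 : ‖h.eval z‖ ≤ 1 :=
      (norm_eval_le h z).trans ((maj_mono h (norm_nonneg z) hz.le).trans hρ1.le)
    nlinarith [norm_nonneg z]
  -- uniform attraction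
  obtain ⟨k0, hk0⟩ : ∃ k0, ∀ z ∈ spectrum ℂ b, ‖f^[k0] z‖ < ρ := by
    have hcomp : IsCompact (spectrum ℂ b) := spectrum.isCompact b
    obtain ⟨k0, hk⟩ := hcomp.elim_directed_cover (fun k : ℕ => {z : ℂ | ‖f^[k] z‖ < ρ})
      (fun k => isOpen_lt ((hfc.iterate k).norm) continuous_const) (by
        intro z hz
        have h1 : Tendsto (fun k => ‖f^[k] z‖) atTop (𝓝 0) := by
          simpa using (hσ z hz).norm
        obtain ⟨k, hk⟩ := (h1.eventually (gt_mem_nhds hρ)).exists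
        exact Set.mem_iUnion.2 ⟨k, hk⟩) (by
        refine Monotone.directed_le (monotone_nat_of_le_succ fun k z hz => ?_)
        show ‖f^[k + 1] z‖ < ρ
        rw [Function.iterate_succ_apply']
        exact hfρ _ hz)
    exact ⟨k0, fun z hz => hk hz⟩
  obtain ⟨ρ', hρ'⟩ : ∃ ρ' : NNReal, (ρ' : ℝ) = ρ := ⟨⟨ρ, hρ.le⟩, rfl⟩
  have hsr : spectralRadius ℂ (it p b k0) < (ρ' : ENNReal) := by
    refine spectrum.spectralRadius_lt_of_forall_lt_of_nonempty (spectrum.nonempty _) ?_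
    intro z hz
    rw [spectrum_it] at hz
    obtain ⟨w, hw, rfl⟩ := hz
    have h1 : (‖f^[k0] w‖₊ : ℝ) < ρ' := by rw [hρ']; exact hk0 w hw
    exact_mod_cast h1
  obtain ⟨M, hM, hE'⟩ := exists_bound hsr
  have hE : E (it p b k0) ρ 1 M := by rw [← hρ']; exact hE'
  have h1 := norm_it_le hp hρ le_rfl hρ1.le hM hE
  have h0 := maj_nonneg h hρ.le
  have h2 : Tendsto (fun j => maj h ρ ^ j * ρ * M) atTop (𝓝 (0 * ρ * M)) :=
    ((tendsto_pow_atTop_nhds_zero_of_lt_one h0 hρ1).mul_const ρ).mul_const M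
  rw [zero_mul, zero_mul] at h2
  have h3 : Tendsto (fun j => ‖it p b (k0 + j)‖) atTop (𝓝 0) := by
    refine squeeze_zero (fun _ => norm_nonneg _) (fun j => ?_) h2
    rw [it_add]
    exact h1 j
  refine (tendsto_add_atTop_iff_nat (f := fun k => ‖it p b k‖) k0).1 ?_
  refine h3.congr fun j => ?_
  rw [add_comm]

/-- iterates of a polynomial with an attracting fixed point -/
theorem tendsto_it [Nontrivial R] (p : ℂ[X]) (b : R) (z₀ : ℂ) (hp0 : p.eval z₀ = z₀)
    (hp1 : ‖p.derivative.eval z₀‖ < 1)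
    (hσ : ∀ z ∈ spectrum ℂ b, Tendsto (fun k => (fun z => p.eval z)^[k] z) atTop (𝓝 z₀)) :
    Tendsto (fun k => ‖it p b k - algebraMap ℂ R z₀‖) atTop (𝓝 0) := by
  obtain ⟨p', hp'⟩ : ∃ p' : ℂ[X], p' = p.comp (X + C z₀) - C z₀ := ⟨_, rfl⟩
  have h1 : ∀ k, it p' (b - algebraMap ℂ R z₀) k = it p b k - algebraMap ℂ R z₀ := by
    intro k
    induction k with
    | zero => rfl
    | succ k ih =>
      show aeval (it p' (b - algebraMap ℂ R z₀) k) p' = aeval (it p b k) p - algebraMap ℂ R z₀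
      rw [ih, hp', map_sub, aeval_comp, map_add, aeval_X, aeval_C, sub_add_cancel]
  have h2 : ∀ w k, (fun z => p'.eval z)^[k] w = (fun z => p.eval z)^[k] (w + z₀) - z₀ := by
    intro w k
    induction k with
    | zero => simp
    | succ k ih =>
      rw [Function.iterate_succ_apply', Function.iterate_succ_apply', ih, hp']
      simp
  have h3 := tendsto_it_zero p' (b - algebraMap ℂ R z₀) (by rw [hp']; simp [hp0]) (by
    rw [hp']
    simpa [derivative_comp] using hp1) (by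
    intro z hz
    have h4 : z + z₀ ∈ spectrum ℂ b := by
      rw [spectrum.add_mem_iff, neg_add_eq_sub]
      exact hz
    have h5 := (hσ _ h4).sub_const z₀
    rw [sub_self] at h5
    exact h5.congr fun k => (h2 z k).symm)
  simpa only [h1] using h3

end Spec

end Vale.Agent.P131.Basin
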