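import Vale.Agent.P131.Poly

/-!
# P131: the three special cases
-/

open Filter Topology Polynomial

namespace Vale.Agent.P131

variable {E : Type*} [NormedAddCommGroup E] [NormedSpace ℂ E]

theorem aeval_comm_of {T A : E →L[ℂ] E} (h : A * T = T * A) (p : ℂ[X]) :
    A * aeval T p = aeval T p * A := by
  induction p using Polynomial.induction_on' with
  | add p q hp hq => rw [map_add, mul_add, add_mul, hp, hq]
  | monomial n a =>
    rw [aeval_monomial]
    have h1 : SemiconjBy A (T ^ n) (T ^ n) := SemiconjBy.pow_right h n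
    have h2 : A * T ^ n = T ^ n * A := h1
    rw [← Algebra.smul_def, mul_smul_comm, h2, smul_mul_assoc]

theorem aeval_semiconj {T U K : E →L[ℂ] E} (h : T * K = K * U) (p : ℂ[X]) :
    aeval T p * K = K * aeval U p := by
  induction p using Polynomial.induction_on' with
  | add p q hp hq => rw [map_add, map_add, add_mul, mul_add, hp, hq]
  | monomial n a =>
    rw [aeval_monomial, aeval_monomial, ← Algebra.smul_def, ← Algebra.smul_def]
    have h1 : SemiconjBy K U T := h.symm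
    have h2 : K * U ^ n = T ^ n * K := h1.pow_right n
    rw [smul_mul_assoc, mul_smul_comm, h2]

theorem tendsto_geom {c ρ s B : ℝ} (hc : 0 < c) (hρ : 0 < ρ) (k : ℕ) (hk : c * ρ ^ k < 1)
    {f : ℕ → ℝ} (hf0 : ∀ n, 0 ≤ f n) (hf : ∀ n, f n ≤ B * (ρ ^ n * s) ^ k) :
    Tendsto (fun n => c ^ n * f n) atTop (𝓝 0) := by
  have hlim : Tendsto (fun n : ℕ => B * s ^ k * (c * ρ ^ k) ^ n) atTop (𝓝 0) := by
    have := (tendsto_pow_atTop_nhds_zero_of_lt_one (by positivity) hk).const_mul (B * s ^ k)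
    simpa using this
  refine squeeze_zero (fun n => mul_nonneg (by positivity) (hf0 n)) (fun n => ?_) hlim
  calc c ^ n * f n ≤ c ^ n * (B * (ρ ^ n * s) ^ k) := by
        have := hf n
        gcongr
    _ = B * s ^ k * (c * ρ ^ k) ^ n := by
        rw [mul_pow, mul_pow, ← pow_mul, ← pow_mul, mul_comm n k]; ring

theorem exists_k {c ρ : ℝ} (hc : 0 < c) (hρ : 0 < ρ) (hρ1 : ρ < 1) : ∃ k : ℕ, c * ρ ^ k < 1 := by
  obtain ⟨k, hk⟩ := exists_pow_lt_of_lt_one (show (0 : ℝ) < 1 / c by positivity) hρ1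
  refine ⟨k, ?_⟩
  calc c * ρ ^ k < c * (1 / c) := by gcongr
    _ = 1 := by field_simp

/-- `T K = K p(T)` -/
theorem poly_forward {T K : E →L[ℂ] E} (hT : T ≠ 0) (hK : K ≠ 0) (hKc : IsCompactOperator K)
    (p : ℂ[X]) (h0 : p.coeff 0 = 0) (h1 : ‖p.coeff 1‖ < 1) (hTK : T * K = K * aeval T p)
    (hx : ∃ x : E, x ≠ 0 ∧
      Tendsto (fun n : ℕ => ‖(T ^ n) x‖ ^ (1 / (n : ℝ))) atTop (𝓝 0)) :
    HasHyperinvariant T := by
  obtain ⟨x, hx0, hx⟩ := hx
  obtain ⟨ρ, hρ, hρ1, s, hs, hdec⟩ := decay (E := E) h0 h1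
  obtain ⟨B, hB, hbd⟩ := geom_bound (fun n => norm_nonneg ((T ^ n) x)) hx hs
  refine forward hT hK hKc (fun n => aeval T (iter p n)) (by simp [iter])
    (fun n A hA => aeval_comm_of hA _) (fun n => ?_) ⟨x, hx0, fun c hc => ?_⟩
  · have e : aeval T (iter p (n + 1)) = aeval (aeval T p) (iter p n) := by
      rw [iter, aeval_comp]
    rw [e]
    exact aeval_semiconj hTK _
  · obtain ⟨k, hk⟩ := exists_k hc hρ hρ1
    exact ⟨k, tendsto_geom hc hρ k hk (fun n => norm_nonneg _)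
      (fun n => hdec T x B hB hbd n k)⟩

/-- `p(T) K = K T` -/
theorem poly_backward {T K : E →L[ℂ] E} (hT : T ≠ 0) (hK : K ≠ 0) (hKc : IsCompactOperator K)
    (p : ℂ[X]) (h0 : p.coeff 0 = 0) (h1 : ‖p.coeff 1‖ < 1) (hTK : aeval T p * K = K * T)
    (hx : Tendsto (fun n : ℕ => ‖T ^ n‖ ^ (1 / (n : ℝ))) atTop (𝓝 0)) :
    HasHyperinvariant T := by
  obtain ⟨ρ, hρ, hρ1, s, hs, hdec⟩ := decay (E := E) h0 h1
  obtain ⟨B, hB, hbd⟩ := geom_bound (fun n => norm_nonneg (T ^ n)) hx hs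
  refine backward hT hK hKc (fun n => aeval T (iter p n)) (by simp [iter])
    (fun n A hA => aeval_comm_of hA _) (fun n => ?_) (fun c hc => ?_)
  · have e : aeval T (iter p (n + 1)) = aeval (aeval T p) (iter p n) := by
      rw [iter, aeval_comp]
    rw [e]
    exact aeval_semiconj hTK _
  · obtain ⟨k, hk⟩ := exists_k hc hρ hρ1
    refine ⟨k, tendsto_geom (B := B) (s := s) hc hρ k hk (fun n => norm_nonneg _) (fun n => ?_)⟩
    refine ContinuousLinearMap.opNorm_le_bound _ (by positivity) (fun x => ?_)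
    have := hdec T x (B * ‖x‖) (by positivity) (fun i => by
      calc ‖(T ^ i) x‖ ≤ ‖T ^ i‖ * ‖x‖ := ContinuousLinearMap.le_opNorm _ _
        _ ≤ (B * s ^ i) * ‖x‖ := by gcongr; exact hbd i
        _ = B * ‖x‖ * s ^ i := by ring) n k
    calc ‖((aeval T (iter p n)) ^ k) x‖ ≤ B * ‖x‖ * (ρ ^ n * s) ^ k := this
      _ = B * (ρ ^ n * s) ^ k * ‖x‖ := by ring

/-- `T K = K T ^ m` -/
theorem power_forward {T K : E →L[ℂ] E} (hT : T ≠ 0) (hK : K ≠ 0) (hKc : IsCompactOperator K)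
    (m : ℕ) (hm : 2 ≤ m) (hTK : T * K = K * T ^ m)
    (hx : ∃ x : E, x ≠ 0 ∧ ∃ ρ : ℝ, ρ < 1 ∧ ∃ B : ℝ, ∀ n : ℕ, ‖(T ^ n) x‖ ≤ B * ρ ^ n) :
    HasHyperinvariant T := by
  obtain ⟨x, hx0, ρ, hρ1, B, hB⟩ := hx
  have hBpos : 0 < B := by
    have := hB 0
    simp only [pow_zero, mul_one] at this
    have h2 : 0 < ‖x‖ := norm_pos_iff.2 hx0
    exact h2.trans_le this
  have hρ0 : 0 ≤ ρ := by
    have := (norm_nonneg _).trans (hB 1)
    rw [pow_one] at this
    by_contra hneg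
    push Not at hneg
    nlinarith
  set σ : ℝ := max ρ (1 / 2) with hσ
  have hσ0 : 0 < σ := lt_of_lt_of_le (by norm_num) (le_max_right _ _)
  have hσ1 : σ < 1 := max_lt hρ1 (by norm_num)
  have hBσ : ∀ n, ‖(T ^ n) x‖ ≤ B * σ ^ n := fun n => (hB n).trans (by
    have := le_max_left ρ (1 / 2)
    gcongr)
  refine forward hT hK hKc (fun n => T ^ (m ^ n)) (by simp) (fun n A hA => ?_) (fun n => ?_)
    ⟨x, hx0, fun c hc => ⟨1, ?_⟩⟩
  · exact SemiconjBy.pow_right (show SemiconjBy A T T from hA) _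
  · have h1 : SemiconjBy K (T ^ m) T := hTK.symm
    have h2 : K * (T ^ m) ^ (m ^ n) = T ^ (m ^ n) * K := h1.pow_right _
    rw [← h2, ← pow_mul, ← pow_succ']
  · -- super-exponential decay
    have hpos : ∀ n : ℕ, 0 < c ^ n * (B * σ ^ (2 ^ n)) := fun n => by positivity
    have hratio : Tendsto (fun n : ℕ => c * σ ^ (2 ^ n)) atTop (𝓝 0) := by
      have h1 : Tendsto (fun n : ℕ => σ ^ (2 ^ n)) atTop (𝓝 0) :=
        (tendsto_pow_atTop_nhds_zero_of_lt_one hσ0.le hσ1).comp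
          (tendsto_pow_atTop_atTop_of_one_lt (by norm_num))
      simpa using h1.const_mul c
    have hsum : Summable (fun n : ℕ => c ^ n * (B * σ ^ (2 ^ n))) := by
      refine summable_of_ratio_test_tendsto_lt_one (l := 0) (by norm_num)
        (Eventually.of_forall fun n => (hpos n).ne') ?_
      refine hratio.congr fun n => ?_
      rw [Real.norm_of_nonneg (hpos _).le, Real.norm_of_nonneg (hpos _).le]
      have hp := hpos n
      have e : c ^ (n + 1) * (B * σ ^ (2 ^ (n + 1)))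
          = (c * σ ^ (2 ^ n)) * (c ^ n * (B * σ ^ (2 ^ n))) := by
        have : σ ^ (2 ^ (n + 1)) = σ ^ (2 ^ n) * σ ^ (2 ^ n) := by
          rw [← pow_add]; congr 1; ring
        rw [this]; ring
      rw [e, mul_div_assoc, div_self hp.ne', mul_one]
    refine squeeze_zero (fun n => by positivity) (fun n => ?_) hsum.tendsto_atTop_zero
    rw [pow_one]
    gcongr
    refine (hBσ _).trans ?_
    gcongr B * ?_
    exact pow_le_pow_of_le_one hσ0.le hσ1.le (Nat.pow_le_pow_left hm n)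

end Vale.Agent.P131
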