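import Vale.Agent.P131.Maj

/-! P131 row HIL: the argument of Hilden for `T K = K f(T)`. -/

open Polynomial

namespace Vale.Agent.P131

variable {E : Type*} [NormedAddCommGroup E] [NormedSpace ℂ E] [CompleteSpace E]

/-- closed hyperinvariant subspace -/
def Hyper (T : E →L[ℂ] E) (M : Submodule ℂ E) : Prop :=
  IsClosed (M : Set E) ∧ ∀ A : E →L[ℂ] E, A * T = T * A → ∀ x ∈ M, A x ∈ M

/-- Proof. Otherwise every orbit `{A x : A ∈ {T}'}`, `x ≠ 0`, is dense. Take `x₀` with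
`K x₀ ≠ 0`, `T x₀ ≠ 0` and a closed ball `B` around `x₀`, radius `r`, `‖K‖ r < ‖K x₀‖`,
`‖T‖ r < ‖T x₀‖`. The compact set `closure (K '' B)` does not contain `0`, so it is covered by
finitely many sets `{y : ‖A i y - x₀‖ < r}`. Hence there are `x (n+1) = A (i n) (K (x n))` in `B`,
`x n = P n x₀`, `‖P n‖ ≤ L ^ n`. From `T K = K f(T)`: `T P n = P n F n (T)`, `F 0 = X`,
`F (n+1) = f ∘ F n`. So `‖T (x n)‖ ≤ L ^ n ‖F n (T)‖ ‖x₀‖` tends to `0`, but it is at least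
`‖T x₀‖ - ‖T‖ r > 0`. -/
theorem hilden (T K : E →L[ℂ] E) (f : ℂ[X]) (hT : T ≠ 0) (hK : K ≠ 0)
    (hKc : IsCompactOperator K) (hTK : T * K = K * aeval T f)
    (hlim : ∀ B : ℝ, Filter.Tendsto
      (fun n : ℕ => B ^ n * ‖aeval T ((fun g : ℂ[X] => f.comp g)^[n] X)‖) Filter.atTop (nhds 0)) :
    ∃ M : Submodule ℂ E, Hyper T M ∧ M ≠ ⊥ ∧ M ≠ ⊤ := by
  sorry

end Vale.Agent.P131
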