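import Mathlib

/-!
# P131: Hilden iteration for operators intertwined by a compact operator
-/

open Filter Topology Polynomial

namespace Vale.Agent.P131

variable {E : Type*} [NormedAddCommGroup E] [NormedSpace ℂ E]

/-- `T` has a nontrivial closed hyperinvariant subspace. -/
def HasHyperinvariant (T : E →L[ℂ] E) : Prop :=
  ∃ M : Submodule ℂ E, IsClosed (M : Set E) ∧ M ≠ ⊥ ∧ M ≠ ⊤ ∧
    ∀ A : E →L[ℂ] E, A * T = T * A → ∀ x ∈ M, A x ∈ M

/-- The linear manifold `{T}' y`. -/
def orbitOf (T : E →L[ℂ] E) (y : E) : Submodule ℂ E where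
  carrier := {z | ∃ A : E →L[ℂ] E, A * T = T * A ∧ A y = z}
  add_mem' := by
    rintro a b ⟨A, hA, rfl⟩ ⟨B, hB, rfl⟩
    exact ⟨A + B, by rw [add_mul, mul_add, hA, hB], by simp⟩
  zero_mem' := ⟨0, by simp, by simp⟩
  smul_mem' := by
    rintro c a ⟨A, hA, rfl⟩
    exact ⟨c • A, by rw [smul_mul_assoc, mul_smul_comm, hA], by simp⟩

theorem dense_orbit {T : E →L[ℂ] E} (h : ¬ HasHyperinvariant T) {y : E} (hy : y ≠ 0) (z : E)
    {ε : ℝ} (hε : 0 < ε) : ∃ A : E →L[ℂ] E, A * T = T * A ∧ ‖A y - z‖ < ε := by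
  have htop : (orbitOf T y).topologicalClosure = ⊤ := by
    by_contra hne
    refine h ⟨(orbitOf T y).topologicalClosure, Submodule.isClosed_topologicalClosure _, ?_, hne,
      ?_⟩
    · intro hbot
      have : y ∈ (orbitOf T y).topologicalClosure :=
        Submodule.le_topologicalClosure _ ⟨1, by simp, by simp⟩
      rw [hbot, Submodule.mem_bot] at this
      exact hy this
    · intro A hA x hx
      have hmaps : Set.MapsTo A (orbitOf T y : Set E) (orbitOf T y : Set E) := by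
        rintro _ ⟨B, hB, rfl⟩
        exact ⟨A * B, by rw [mul_assoc, hB, ← mul_assoc, hA, mul_assoc], rfl⟩
      have := hmaps.closure A.continuous
      exact this hx
  have hz : z ∈ closure (orbitOf T y : Set E) := by
    have : z ∈ (orbitOf T y).topologicalClosure := by rw [htop]; trivial
    exact this
  rw [Metric.mem_closure_iff] at hz
  obtain ⟨b, ⟨A, hA, rfl⟩, hb⟩ := hz ε hε
  exact ⟨A, hA, by rwa [dist_comm, dist_eq_norm] at hb⟩

/-- If `T` has no hyperinvariant subspace and `T ≠ 0` then `T` is injective. -/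
theorem injective_of_not {T : E →L[ℂ] E} (hT : T ≠ 0) (h : ¬ HasHyperinvariant T) {x : E}
    (hx : T x = 0) : x = 0 := by
  by_contra hx0
  refine h ⟨LinearMap.ker (T : E →ₗ[ℂ] E), ?_, ?_, ?_, ?_⟩
  · exact T.isClosed_ker
  · intro hbot
    have : x ∈ LinearMap.ker (T : E →ₗ[ℂ] E) := hx
    rw [hbot, Submodule.mem_bot] at this
    exact hx0 this
  · intro htop
    apply hT
    ext v
    have : v ∈ LinearMap.ker (T : E →ₗ[ℂ] E) := by rw [htop]; trivial
    exact this
  · intro A hA v hv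
    have hv' : T v = 0 := hv
    show T (A v) = 0
    have h2 : A (T v) = T (A v) := congrArg (fun B : E →L[ℂ] E => B v) hA
    rw [← h2, hv', map_zero]

/-- The Hilden scheme: a closed ball around `x₀`, on which `K` has no zero, a finite set of
operators commuting with `T`, giving for every start in the ball an infinite sequence in it. -/
theorem scheme {T K : E →L[ℂ] E} (h : ¬ HasHyperinvariant T) (hKc : IsCompactOperator K)
    {x₀ : E} (hx₀ : K x₀ ≠ 0) :
    ∃ (r : ℝ) (D : Set E) (c : ℝ) , 0 < r ∧ 0 ≤ c ∧ IsCompact D ∧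
      (∀ z ∈ Metric.closedBall x₀ r, z ≠ 0) ∧ D ⊆ Metric.closedBall x₀ r ∧
      ∀ z₀ ∈ Metric.closedBall x₀ r, ∃ W : ℕ → (E →L[ℂ] E), W 0 = 1 ∧
        (∀ n, W (n + 1) z₀ ∈ D) ∧
        ∀ n, ∃ A : E →L[ℂ] E, A * T = T * A ∧ W (n + 1) = A * K * W n ∧ ‖A * K‖ ≤ c := by
  classical
  set κ := ‖K x₀‖ with hκ
  have hκ0 : 0 < κ := norm_pos_iff.2 hx₀
  set r : ℝ := κ / (2 * (‖K‖ + 1)) with hr
  have hr0 : 0 < r := by positivity
  have hball : ∀ z ∈ Metric.closedBall x₀ r, κ / 2 ≤ ‖K z‖ := by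
    intro z hz
    have h1 : ‖K z - K x₀‖ ≤ ‖K‖ * r := by
      rw [← map_sub]
      refine (K.le_opNorm _).trans ?_
      gcongr
      rwa [← dist_eq_norm]
    have h2 : ‖K‖ * r ≤ κ / 2 := by
      rw [hr]
      have : ‖K‖ * (κ / (2 * (‖K‖ + 1))) = (κ / 2) * (‖K‖ / (‖K‖ + 1)) := by
        field_simp
      rw [this]
      have h3 : ‖K‖ / (‖K‖ + 1) ≤ 1 := by
        rw [div_le_one (by positivity)]; linarith
      nlinarith
    have h4 : κ ≤ ‖K z‖ + ‖K z - K x₀‖ := by
      have := norm_sub_le (K z) (K z - K x₀)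
      rw [sub_sub_cancel] at this
      exact this
    linarith
  have hne : ∀ z ∈ Metric.closedBall x₀ r, z ≠ 0 := by
    rintro z hz rfl
    have := hball 0 hz
    rw [map_zero, norm_zero] at this
    linarith
  set C : Set E := closure (K '' Metric.closedBall x₀ r) with hC
  have hCc : IsCompact C :=
    hKc.isCompact_closure_image_of_isVonNBounded
      (NormedSpace.isVonNBounded_of_isBounded _ Metric.isBounded_closedBall)
  have hC0 : ∀ y ∈ C, y ≠ 0 := by
    intro y hy
    have hcl : C ⊆ {y : E | κ / 2 ≤ ‖y‖} := by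
      refine closure_minimal ?_ (isClosed_le continuous_const continuous_norm)
      rintro _ ⟨z, hz, rfl⟩
      exact hball z hz
    have := hcl hy
    rintro rfl
    simp only [Set.mem_ofPred_eq, norm_zero] at this
    linarith
  obtain ⟨t, ht⟩ := hCc.elim_finite_subcover
    (fun A : {A : E →L[ℂ] E // A * T = T * A} => {w : E | ‖A.1 w - x₀‖ < r})
    (fun A => isOpen_lt (by fun_prop) continuous_const)
    (fun y hy => by
      obtain ⟨A, hA, hlt⟩ := dense_orbit h (hC0 y hy) x₀ hr0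
      exact Set.mem_iUnion.2 ⟨⟨A, hA⟩, hlt⟩)
  -- choice of the next operator
  have hchoice : ∀ w ∈ C, ∃ A ∈ t, ‖A.1 w - x₀‖ < r := by
    intro w hw
    have := ht hw
    simp only [Set.mem_iUnion, Set.mem_ofPred_eq, exists_prop] at this
    exact this
  set c : ℝ := ∑ A ∈ t, ‖A.1 * K‖ with hc
  have hcA : ∀ A ∈ t, ‖A.1 * K‖ ≤ c := fun A hA =>
    Finset.single_le_sum (f := fun A : {A : E →L[ℂ] E // A * T = T * A} => ‖A.1 * K‖)
      (fun _ _ => norm_nonneg _) hA
  refine ⟨r, (⋃ A ∈ t, A.1 '' C) ∩ Metric.closedBall x₀ r, c, hr0,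
    Finset.sum_nonneg fun _ _ => norm_nonneg _, ?_, hne, Set.inter_subset_right, ?_⟩
  · exact (t.isCompact_biUnion fun A _ => hCc.image A.1.continuous).inter_right
      Metric.isClosed_closedBall
  · intro z₀ hz₀
    let a : E → (E →L[ℂ] E) := fun w => if hw : w ∈ C then (hchoice w hw).choose.1 else 0
    have ha : ∀ w (hw : w ∈ C), (a w) * T = T * (a w) ∧ ‖a w * K‖ ≤ c ∧ ‖a w w - x₀‖ < r ∧
        a w w ∈ (⋃ A ∈ t, A.1 '' C) := by
      intro w hw
      have e : a w = (hchoice w hw).choose.1 := by simp only [a, hw, dif_pos]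
      rw [e]
      refine ⟨(hchoice w hw).choose.2, hcA _ (hchoice w hw).choose_spec.1,
        (hchoice w hw).choose_spec.2, ?_⟩
      exact Set.mem_biUnion (hchoice w hw).choose_spec.1 ⟨w, hw, rfl⟩
    let W : ℕ → (E →L[ℂ] E) := fun n => Nat.rec 1 (fun _ W => a (K (W z₀)) * K * W) n
    have hW0 : W 0 = 1 := rfl
    have hWs : ∀ n, W (n + 1) = a (K (W n z₀)) * K * W n := fun n => rfl
    have hmem : ∀ n, W n z₀ ∈ Metric.closedBall x₀ r := by
      intro n
      induction n with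
      | zero => simpa [hW0] using hz₀
      | succ n ih =>
        have hk : K (W n z₀) ∈ C := subset_closure ⟨_, ih, rfl⟩
        rw [hWs, mem_closedBall_iff_norm]
        exact (ha _ hk).2.2.1.le
    refine ⟨W, hW0, fun n => ?_, fun n => ?_⟩
    · have hk : K (W n z₀) ∈ C := subset_closure ⟨_, hmem n, rfl⟩
      refine ⟨?_, hmem (n + 1)⟩
      rw [hWs]
      exact (ha _ hk).2.2.2
    · have hk : K (W n z₀) ∈ C := subset_closure ⟨_, hmem n, rfl⟩
      exact ⟨_, (ha _ hk).1, hWs n, (ha _ hk).2.1⟩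

end Vale.Agent.P131
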