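import Vale.Agent.P131.Hilden

/-!
# P131: hyperinvariant subspaces from compact intertwiners
-/

open Filter Topology Polynomial

namespace Vale.Agent.P131

variable {E : Type*} [NormedAddCommGroup E] [NormedSpace ℂ E]

theorem pow_inj {T : E →L[ℂ] E} (hT : T ≠ 0) (h : ¬ HasHyperinvariant T) (k : ℕ) :
    ∀ x : E, (T ^ k) x = 0 → x = 0 := by
  induction k with
  | zero => intro x hx; simpa using hx
  | succ k ih =>
    intro x hx
    rw [pow_succ] at hx
    exact injective_of_not hT h (ih (T x) hx)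

/-- Semiconjugacy along the Hilden scheme, forward equation. -/
theorem semiconj_forward {T K : E →L[ℂ] E} {S W : ℕ → (E →L[ℂ] E)} (hW0 : W 0 = 1)
    (hcom : ∀ n (A : E →L[ℂ] E), A * T = T * A → A * S n = S n * A)
    (hSK : ∀ n, S n * K = K * S (n + 1))
    (hW : ∀ n, ∃ A : E →L[ℂ] E, A * T = T * A ∧ W (n + 1) = A * K * W n) (n : ℕ) :
    ∀ j, SemiconjBy (W n) (S (j + n)) (S j) := by
  induction n with
  | zero => intro j; rw [hW0]; exact SemiconjBy.one_left _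
  | succ n ih =>
    intro j
    obtain ⟨A, hA, e⟩ := hW n
    have h1 : SemiconjBy A (S j) (S j) := hcom j A hA
    have h2 : SemiconjBy K (S (j + 1)) (S j) := (hSK j).symm
    have h3 := ih (j + 1)
    rw [show j + 1 + n = j + (n + 1) by ring] at h3
    rw [e]
    exact (h1.mul_left h2).mul_left h3

/-- Semiconjugacy along the Hilden scheme, backward equation. -/
theorem semiconj_backward {T K : E →L[ℂ] E} {S W : ℕ → (E →L[ℂ] E)} (hW0 : W 0 = 1)
    (hcom : ∀ n (A : E →L[ℂ] E), A * T = T * A → A * S n = S n * A)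
    (hSK : ∀ n, S (n + 1) * K = K * S n)
    (hW : ∀ n, ∃ A : E →L[ℂ] E, A * T = T * A ∧ W (n + 1) = A * K * W n) (n : ℕ) :
    SemiconjBy (W n) (S 0) (S n) := by
  induction n with
  | zero => rw [hW0]; exact SemiconjBy.one_left _
  | succ n ih =>
    obtain ⟨A, hA, e⟩ := hW n
    have h1 : SemiconjBy A (S (n + 1)) (S (n + 1)) := hcom (n + 1) A hA
    have h2 : SemiconjBy K (S n) (S (n + 1)) := (hSK n).symm
    rw [e]
    exact (h1.mul_left h2).mul_left ih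

theorem norm_W {T K : E →L[ℂ] E} {W : ℕ → (E →L[ℂ] E)} {c : ℝ} (hc : 0 ≤ c) (hW0 : W 0 = 1)
    (hW : ∀ n, ∃ A : E →L[ℂ] E, A * T = T * A ∧ W (n + 1) = A * K * W n ∧ ‖A * K‖ ≤ c)
    (n : ℕ) (x : E) : ‖W n x‖ ≤ c ^ n * ‖x‖ := by
  induction n with
  | zero => simp [hW0]
  | succ n ih =>
    obtain ⟨A, -, e, hA⟩ := hW n
    have : W (n + 1) x = (A * K) (W n x) := by rw [e]; rfl
    rw [this]
    calc ‖(A * K) (W n x)‖ ≤ ‖A * K‖ * ‖W n x‖ := ContinuousLinearMap.le_opNorm _ _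
      _ ≤ c * (c ^ n * ‖x‖) := by gcongr
      _ = c ^ (n + 1) * ‖x‖ := by ring

/-- **Forward theorem.** -/
theorem forward {T K : E →L[ℂ] E} (hT : T ≠ 0) (hK : K ≠ 0) (hKc : IsCompactOperator K)
    (S : ℕ → (E →L[ℂ] E)) (h0 : S 0 = T)
    (hcom : ∀ n (A : E →L[ℂ] E), A * T = T * A → A * S n = S n * A)
    (hSK : ∀ n, S n * K = K * S (n + 1))
    (hx : ∃ x : E, x ≠ 0 ∧ ∀ c : ℝ, 0 < c → ∃ k : ℕ,
      Tendsto (fun n => c ^ n * ‖(S n ^ k) x‖) atTop (𝓝 0)) :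
    HasHyperinvariant T := by
  by_contra h
  obtain ⟨x, hx0, hdec⟩ := hx
  obtain ⟨v, hv⟩ : ∃ v, K v ≠ 0 := by
    by_contra hcon
    push Not at hcon
    exact hK (by ext v; simpa using hcon v)
  have hKv : 0 < ‖K v‖ := norm_pos_iff.2 hv
  obtain ⟨A, hA, hAx⟩ := dense_orbit h hx0 v (ε := ‖K v‖ / (‖K‖ + 1)) (by positivity)
  have hKAx : K (A x) ≠ 0 := by
    intro hzero
    have h1 : ‖K (A x - v)‖ ≤ ‖K‖ * (‖K v‖ / (‖K‖ + 1)) :=
      (K.le_opNorm _).trans (by gcongr)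
    rw [map_sub, hzero, zero_sub, norm_neg] at h1
    have h2 : ‖K‖ * (‖K v‖ / (‖K‖ + 1)) < ‖K v‖ := by
      rw [mul_div_assoc', div_lt_iff₀ (by positivity)]
      nlinarith
    linarith
  obtain ⟨r, D, c, hr, hc, hD, hne, hDsub, hsch⟩ := scheme h hKc hKAx
  obtain ⟨W, hW0, hWD, hW⟩ := hsch (A x) (Metric.mem_closedBall_self hr.le)
  obtain ⟨k, hk⟩ := hdec (c + 1) (by linarith)
  -- the minimum of the norm of the k-th power of T on D
  obtain ⟨d, hd, hmin⟩ := hD.exists_isMinOn ⟨_, hWD 0⟩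
    (f := fun z => ‖(T ^ k) z‖) (by fun_prop)
  have hpos : 0 < ‖(T ^ k) d‖ := by
    rw [norm_pos_iff]
    intro hz
    exact hne d (hDsub hd) (pow_inj hT h k d hz)
  have hbound : ∀ n, ‖(T ^ k) (W n (A x))‖ ≤ ‖A‖ * ((c + 1) ^ n * ‖(S n ^ k) x‖) := by
    intro n
    have hs := (semiconj_forward hW0 hcom hSK (fun n => (hW n).imp fun _ h => ⟨h.1, h.2.1⟩) n 0)
    rw [zero_add, h0] at hs
    have hs' : W n * S n ^ k = T ^ k * W n := hs.pow_right k
    have e1 : (T ^ k) (W n (A x)) = W n ((S n ^ k) (A x)) :=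
      (congrArg (fun B : E →L[ℂ] E => B (A x)) hs').symm
    have hs2 : A * S n ^ k = S n ^ k * A := (show SemiconjBy A (S n) (S n) from
      hcom n A hA).pow_right k
    have e2 : (S n ^ k) (A x) = A ((S n ^ k) x) :=
      (congrArg (fun B : E →L[ℂ] E => B x) hs2).symm
    rw [e1, e2]
    calc ‖W n (A ((S n ^ k) x))‖ ≤ c ^ n * ‖A ((S n ^ k) x)‖ := norm_W hc hW0 hW n _
      _ ≤ (c + 1) ^ n * (‖A‖ * ‖(S n ^ k) x‖) := by
          gcongr
          · linarith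
          · exact A.le_opNorm _
      _ = ‖A‖ * ((c + 1) ^ n * ‖(S n ^ k) x‖) := by ring
  have hlim : Tendsto (fun n => ‖A‖ * ((c + 1) ^ n * ‖(S n ^ k) x‖)) atTop (𝓝 0) := by
    simpa using hk.const_mul ‖A‖
  have hlim' := (tendsto_add_atTop_iff_nat 1).2 hlim
  obtain ⟨n, hn⟩ := (hlim'.eventually (gt_mem_nhds hpos)).exists
  have h1 := hbound (n + 1)
  have h2 : ‖(T ^ k) d‖ ≤ ‖(T ^ k) (W (n + 1) (A x))‖ := hmin (hWD n)
  linarith

/-- If `T ≠ 0` has no hyperinvariant subspace then the powers of `T` have dense range. -/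
theorem dense_pow {T : E →L[ℂ] E} (hT : T ≠ 0) (h : ¬ HasHyperinvariant T) (k : ℕ) :
    DenseRange (T ^ k : E →L[ℂ] E) := by
  have h1 : DenseRange (T : E → E) := by
    by_contra hnd
    refine h ⟨(LinearMap.range (T : E →ₗ[ℂ] E)).topologicalClosure,
      Submodule.isClosed_topologicalClosure _, ?_, ?_, ?_⟩
    · intro hbot
      apply hT
      ext v
      have : T v ∈ (LinearMap.range (T : E →ₗ[ℂ] E)).topologicalClosure :=
        Submodule.le_topologicalClosure _ ⟨v, rfl⟩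
      rw [hbot, Submodule.mem_bot] at this
      simpa using this
    · intro htop
      apply hnd
      intro z
      have : z ∈ (LinearMap.range (T : E →ₗ[ℂ] E)).topologicalClosure := by rw [htop]; trivial
      exact this
    · intro A hA x hx
      have hmaps : Set.MapsTo A (LinearMap.range (T : E →ₗ[ℂ] E) : Set E)
          (LinearMap.range (T : E →ₗ[ℂ] E) : Set E) := by
        rintro _ ⟨w, rfl⟩
        exact ⟨A w, (congrArg (fun B : E →L[ℂ] E => B w) hA).symm⟩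
      exact hmaps.closure A.continuous hx
  induction k with
  | zero => exact fun z => subset_closure ⟨z, by simp⟩
  | succ k ih =>
    have : ((T ^ (k + 1) : E →L[ℂ] E) : E → E) = (T ^ k : E →L[ℂ] E) ∘ T := by
      ext z; rw [pow_succ]; rfl
    rw [this]
    exact ih.comp h1 (T ^ k).continuous

/-- **Backward theorem.** -/
theorem backward {T K : E →L[ℂ] E} (hT : T ≠ 0) (hK : K ≠ 0) (hKc : IsCompactOperator K)
    (S : ℕ → (E →L[ℂ] E)) (h0 : S 0 = T)
    (hcom : ∀ n (A : E →L[ℂ] E), A * T = T * A → A * S n = S n * A)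
    (hSK : ∀ n, S (n + 1) * K = K * S n)
    (hdec : ∀ c : ℝ, 0 < c → ∃ k : ℕ, Tendsto (fun n => c ^ n * ‖S n ^ k‖) atTop (𝓝 0)) :
    HasHyperinvariant T := by
  by_contra h
  obtain ⟨v, hv⟩ : ∃ v, K v ≠ 0 := by
    by_contra hcon
    push Not at hcon
    exact hK (by ext v; simpa using hcon v)
  obtain ⟨r, D, c, hr, hc, hD, hne, hDsub, hsch⟩ := scheme h hKc hv
  obtain ⟨k, hk⟩ := hdec (c + 1) (by linarith)
  obtain ⟨y, hy⟩ : ∃ y, (T ^ k) y ∈ Metric.closedBall v r := by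
    obtain ⟨_, ⟨y, rfl⟩, hy⟩ := Metric.mem_closure_iff.1 (dense_pow hT h k v) r hr
    exact ⟨y, by rw [Metric.mem_closedBall, dist_comm]; exact hy.le⟩
  obtain ⟨W, hW0, hWD, hW⟩ := hsch _ hy
  obtain ⟨d, hd, hmin⟩ := hD.exists_isMinOn ⟨_, hWD 0⟩ (f := fun z => ‖z‖) (by fun_prop)
  have hpos : 0 < ‖d‖ := norm_pos_iff.2 (hne d (hDsub hd))
  have hbound : ∀ n, ‖W n ((T ^ k) y)‖ ≤ ‖y‖ * ((c + 1) ^ n * ‖S n ^ k‖) := by
    intro n
    have hs := (semiconj_backward hW0 hcom hSK (fun n => (hW n).imp fun _ h => ⟨h.1, h.2.1⟩) n)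
    rw [h0] at hs
    have hs' : W n * T ^ k = S n ^ k * W n := hs.pow_right k
    have e1 : W n ((T ^ k) y) = (S n ^ k) (W n y) :=
      congrArg (fun B : E →L[ℂ] E => B y) hs'
    rw [e1]
    calc ‖(S n ^ k) (W n y)‖ ≤ ‖S n ^ k‖ * ‖W n y‖ := ContinuousLinearMap.le_opNorm _ _
      _ ≤ ‖S n ^ k‖ * ((c + 1) ^ n * ‖y‖) := by
          gcongr
          refine (norm_W hc hW0 hW n y).trans ?_
          gcongr
          linarith
      _ = ‖y‖ * ((c + 1) ^ n * ‖S n ^ k‖) := by ring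
  have hlim : Tendsto (fun n => ‖y‖ * ((c + 1) ^ n * ‖S n ^ k‖)) atTop (𝓝 0) := by
    simpa using hk.const_mul ‖y‖
  have hlim' := (tendsto_add_atTop_iff_nat 1).2 hlim
  obtain ⟨n, hn⟩ := (hlim'.eventually (gt_mem_nhds hpos)).exists
  have h1 := hbound (n + 1)
  have h2 : ‖d‖ ≤ ‖W (n + 1) ((T ^ k) y)‖ := hmin (hWD n)
  linarith

end Vale.Agent.P131
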