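import Vale.Agent.P131.Hil

/-! P131 row MAIN. -/

open Polynomial

namespace Vale.Agent.P131

variable {E : Type*} [NormedAddCommGroup E] [NormedSpace ℂ E] [CompleteSpace E]

theorem pow_bound [Nontrivial E] (T : E →L[ℂ] E) {ρ : ℝ} (hρ : 0 < ρ)
    (hT : spectralRadius ℂ T < ENNReal.ofReal ρ) : ∃ C : ℝ, ∀ k : ℕ, ‖T ^ k‖ ≤ C * ρ ^ k := by
  sorry

theorem main (T K : E →L[ℂ] E) (f : ℂ[X]) {ρ : ℝ} (hρ : 0 < ρ)
    (hTr : spectralRadius ℂ T < ENNReal.ofReal ρ) (h0 : f.coeff 0 = 0) (h1 : f.coeff 1 = 0)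
    (hf : maj f ρ < ρ) (hT : T ≠ 0) (hK : K ≠ 0) (hKc : IsCompactOperator K)
    (hTK : T * K = K * aeval T f) :
    ∃ M : Submodule ℂ E, Hyper T M ∧ M ≠ ⊥ ∧ M ≠ ⊤ := by
  sorry

/-- quasinilpotent `T`, arbitrary `f` with a double zero at `0` -/
theorem main_quasinilpotent (T K : E →L[ℂ] E) (f : ℂ[X])
    (hTr : spectralRadius ℂ T = 0) (h0 : f.coeff 0 = 0) (h1 : f.coeff 1 = 0)
    (hT : T ≠ 0) (hK : K ≠ 0) (hKc : IsCompactOperator K)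
    (hTK : T * K = K * aeval T f) :
    ∃ M : Submodule ℂ E, Hyper T M ∧ M ≠ ⊥ ∧ M ≠ ⊤ := by
  sorry

end Vale.Agent.P131
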