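import Mathlib

/-! P131 row MAJ: majorants of polynomials. -/

open Polynomial

namespace Vale.Agent.P131

/-- the majorant `Σ |a_k| ρ ^ k` of the polynomial `Σ a_k z ^ k` -/
noncomputable def maj (p : ℂ[X]) (ρ : ℝ) : ℝ := p.sum (fun k a => ‖a‖ * ρ ^ k)

theorem maj_nonneg (p : ℂ[X]) {ρ : ℝ} (hρ : 0 ≤ ρ) : 0 ≤ maj p ρ :=
  Finset.sum_nonneg fun k _ => mul_nonneg (norm_nonneg _) (pow_nonneg hρ k)

namespace Maj

theorem eq_range (p : ℂ[X]) (ρ : ℝ) {N : ℕ} (h : p.natDegree < N) :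
    maj p ρ = ∑ k ∈ Finset.range N, ‖p.coeff k‖ * ρ ^ k :=
  Polynomial.sum_over_range' p (fun n => by simp) N h

theorem zero (ρ : ℝ) : maj 0 ρ = 0 := by simp [maj]

theorem add_le (p q : ℂ[X]) {ρ : ℝ} (hρ : 0 ≤ ρ) : maj (p + q) ρ ≤ maj p ρ + maj q ρ := by
  have h0 := natDegree_add_le p q
  rw [eq_range p ρ (N := max p.natDegree q.natDegree + 1) (by omega),
    eq_range q ρ (N := max p.natDegree q.natDegree + 1) (by omega),
    eq_range (p + q) ρ (N := max p.natDegree q.natDegree + 1) (by omega),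
    ← Finset.sum_add_distrib]
  refine Finset.sum_le_sum fun k _ => ?_
  rw [← add_mul, coeff_add]
  exact mul_le_mul_of_nonneg_right (norm_add_le _ _) (pow_nonneg hρ k)

theorem sum_le {ι : Type*} (s : Finset ι) (g : ι → ℂ[X]) {ρ : ℝ} (hρ : 0 ≤ ρ) :
    maj (∑ i ∈ s, g i) ρ ≤ ∑ i ∈ s, maj (g i) ρ := by
  classical
  induction s using Finset.induction_on with
  | empty => simp [zero]
  | insert a s ha ih =>
    rw [Finset.sum_insert ha, Finset.sum_insert ha]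
    exact (add_le _ _ hρ).trans (add_le_add le_rfl ih)

theorem monomial_eq (k : ℕ) (a : ℂ) (ρ : ℝ) : maj (monomial k a) ρ = ‖a‖ * ρ ^ k := by
  unfold maj
  rw [Polynomial.sum_monomial_index]
  simp

theorem mul_le (p q : ℂ[X]) {ρ : ℝ} (hρ : 0 ≤ ρ) : maj (p * q) ρ ≤ maj p ρ * maj q ρ := by
  rw [Polynomial.mul_eq_sum_sum]
  refine (sum_le _ _ hρ).trans ?_
  have h1 : maj p ρ * maj q ρ =
      ∑ i ∈ p.support, ∑ j ∈ q.support, ‖p.coeff i‖ * ρ ^ i * (‖q.coeff j‖ * ρ ^ j) := by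
    unfold maj
    rw [Polynomial.sum_def, Polynomial.sum_def, Finset.sum_mul_sum]
  rw [h1]
  refine Finset.sum_le_sum fun i _ => ?_
  rw [Polynomial.sum_def]
  refine (sum_le _ _ hρ).trans ?_
  refine Finset.sum_le_sum fun j _ => ?_
  rw [monomial_eq, norm_mul, pow_add]
  apply le_of_eq
  ring

theorem one_le (ρ : ℝ) : maj 1 ρ = 1 := by
  have := monomial_eq 0 1 ρ
  simpa using this

theorem pow_le (q : ℂ[X]) {ρ : ℝ} (hρ : 0 ≤ ρ) (n : ℕ) : maj (q ^ n) ρ ≤ maj q ρ ^ n := by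
  induction n with
  | zero => simp [one_le]
  | succ n ih =>
    rw [pow_succ, pow_succ]
    exact (mul_le _ _ hρ).trans (mul_le_mul_of_nonneg_right ih (maj_nonneg q hρ))

theorem C_eq (a : ℂ) (ρ : ℝ) : maj (C a) ρ = ‖a‖ := by
  rw [← monomial_zero_left, monomial_eq, pow_zero, mul_one]

end Maj

theorem maj_comp_le (p q : ℂ[X]) {ρ : ℝ} (hρ : 0 ≤ ρ) : maj (p.comp q) ρ ≤ maj p (maj q ρ) := by
  rw [Polynomial.comp, Polynomial.eval₂_eq_sum, Polynomial.sum_def]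
  refine (Maj.sum_le _ _ hρ).trans ?_
  unfold maj
  rw [Polynomial.sum_def]
  refine Finset.sum_le_sum fun k _ => ?_
  refine (Maj.mul_le _ _ hρ).trans ?_
  rw [Maj.C_eq]
  exact mul_le_mul_of_nonneg_left (Maj.pow_le q hρ k) (norm_nonneg _)

/-- evaluation at an element of a normed algebra -/
theorem norm_aeval_le {A : Type*} [NormedRing A] [NormedAlgebra ℂ A] (p : ℂ[X]) {T : A}
    {ρ C : ℝ} (hρ : 0 ≤ ρ) (hT : ∀ k : ℕ, ‖T ^ k‖ ≤ C * ρ ^ k) :
    ‖aeval T p‖ ≤ C * maj p ρ := by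
  rw [Polynomial.aeval_def, Polynomial.eval₂_eq_sum, Polynomial.sum_def]
  refine (norm_sum_le _ _).trans ?_
  unfold maj
  rw [Polynomial.sum_def, Finset.mul_sum]
  refine Finset.sum_le_sum fun k _ => ?_
  rw [← Algebra.smul_def]
  refine (norm_smul_le _ _).trans ?_
  calc ‖p.coeff k‖ * ‖T ^ k‖ ≤ ‖p.coeff k‖ * (C * ρ ^ k) :=
        mul_le_mul_of_nonneg_left (hT k) (norm_nonneg _)
    _ = C * (‖p.coeff k‖ * ρ ^ k) := by ring

end Vale.Agent.P131
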