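import Vale.Agent.P131.Main

/-!
# P131: iterates of polynomials at operators with small powers
-/

open Filter Topology Polynomial

namespace Vale.Agent.P131

variable {E : Type*} [NormedAddCommGroup E] [NormedSpace ℂ E]

/-- `P` majorises `p` coefficient by coefficient. -/
def Maj (p : ℂ[X]) (P : ℝ[X]) : Prop := ∀ i, ‖p.coeff i‖ ≤ P.coeff i

theorem Maj.nonneg {p : ℂ[X]} {P : ℝ[X]} (h : Maj p P) (i : ℕ) : 0 ≤ P.coeff i :=
  (norm_nonneg _).trans (h i)

theorem Maj.add {p q : ℂ[X]} {P Q : ℝ[X]} (h : Maj p P) (h' : Maj q Q) : Maj (p + q) (P + Q) :=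
  fun i => by
    rw [coeff_add, coeff_add]
    exact (norm_add_le _ _).trans (add_le_add (h i) (h' i))

theorem Maj.zero : Maj 0 0 := fun i => by simp

theorem Maj.one : Maj 1 1 := fun i => by
  rw [coeff_one, coeff_one]
  split_ifs <;> simp

theorem Maj.X' : Maj X X := fun i => by
  rw [coeff_X, coeff_X]
  split_ifs <;> simp

theorem Maj.mul {p q : ℂ[X]} {P Q : ℝ[X]} (h : Maj p P) (h' : Maj q Q) : Maj (p * q) (P * Q) :=
  fun i => by
    rw [coeff_mul, coeff_mul]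
    refine (norm_sum_le _ _).trans (Finset.sum_le_sum fun x _ => ?_)
    rw [norm_mul]
    exact mul_le_mul (h _) (h' _) (norm_nonneg _) (h.nonneg _)

theorem Maj.pow {p : ℂ[X]} {P : ℝ[X]} (h : Maj p P) (k : ℕ) : Maj (p ^ k) (P ^ k) := by
  induction k with
  | zero => simpa using Maj.one
  | succ k ih => rw [pow_succ, pow_succ]; exact ih.mul h

theorem Maj.sum {ι : Type*} (s : Finset ι) {p : ι → ℂ[X]} {P : ι → ℝ[X]}
    (h : ∀ i ∈ s, Maj (p i) (P i)) : Maj (∑ i ∈ s, p i) (∑ i ∈ s, P i) := by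
  classical
  induction s using Finset.induction_on with
  | empty => simpa using Maj.zero
  | insert a s ha ih =>
    rw [Finset.sum_insert ha, Finset.sum_insert ha]
    exact (h a (Finset.mem_insert_self _ _)).add
      (ih fun i hi => h i (Finset.mem_insert_of_mem hi))

theorem Maj.constC {a : ℂ} {b : ℝ} (h : ‖a‖ ≤ b) : Maj (C a) (C b) := fun i => by
  rw [coeff_C, coeff_C]
  split_ifs
  · exact h
  · simp

theorem Maj.comp {p q : ℂ[X]} {P Q : ℝ[X]} (h : Maj p P) (h' : Maj q Q) :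
    Maj (p.comp q) (P.comp Q) := by
  have hn1 : p.natDegree < max p.natDegree P.natDegree + 1 := by omega
  have hn2 : P.natDegree < max p.natDegree P.natDegree + 1 := by omega
  rw [Polynomial.comp, Polynomial.comp, eval₂_eq_sum_range' C hn1, eval₂_eq_sum_range' C hn2]
  exact Maj.sum _ fun i _ => (Maj.constC (h i)).mul (h'.pow i)

/-- the majorant of a polynomial -/
noncomputable def absPoly (p : ℂ[X]) : ℝ[X] :=
  ∑ i ∈ Finset.range (p.natDegree + 1), C ‖p.coeff i‖ * X ^ i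

theorem coeff_absPoly (p : ℂ[X]) (i : ℕ) : (absPoly p).coeff i = ‖p.coeff i‖ := by
  rw [absPoly, finsetSum_coeff]
  simp only [coeff_C_mul, coeff_X_pow]
  by_cases hi : i < p.natDegree + 1
  · rw [Finset.sum_eq_single i]
    · simp
    · intro j _ hj
      rw [if_neg (fun h => hj h.symm), mul_zero]
    · intro h
      exact absurd (Finset.mem_range.2 hi) h
  · rw [Finset.sum_eq_zero]
    · rw [coeff_eq_zero_of_natDegree_lt (by omega), norm_zero]
    · intro j hj
      rw [if_neg (fun h => by rw [Finset.mem_range] at hj; omega), mul_zero]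

theorem maj_abs (p : ℂ[X]) : Maj p (absPoly p) := fun i => (coeff_absPoly p i).ge

theorem norm_aeval_le {T : E →L[ℂ] E} {x : E} {s B : ℝ} (hx : ∀ i, ‖(T ^ i) x‖ ≤ B * s ^ i)
    {p : ℂ[X]} {P : ℝ[X]} (h : Maj p P) : ‖(aeval T p) x‖ ≤ B * P.eval s := by
  have hn1 : p.natDegree < max p.natDegree P.natDegree + 1 := by omega
  have hn2 : P.natDegree < max p.natDegree P.natDegree + 1 := by omega
  rw [aeval_eq_sum_range' hn1, eval_eq_sum_range' hn2, Finset.mul_sum]
  rw [sum_apply]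
  refine (norm_sum_le _ _).trans (Finset.sum_le_sum fun i _ => ?_)
  rw [smul_apply, norm_smul]
  calc ‖p.coeff i‖ * ‖(T ^ i) x‖ ≤ P.coeff i * (B * s ^ i) :=
        mul_le_mul (h i) (hx i) (norm_nonneg _) (h.nonneg i)
    _ = B * (P.coeff i * s ^ i) := by ring

theorem eval_nonneg' {P : ℝ[X]} (h : ∀ i, 0 ≤ P.coeff i) {s : ℝ} (hs : 0 ≤ s) :
    0 ≤ P.eval s := by
  rw [eval_eq_sum_range]
  exact Finset.sum_nonneg fun i _ => mul_nonneg (h i) (pow_nonneg hs i)

/-- the iterates of a polynomial -/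
noncomputable def iter {R : Type*} [CommSemiring R] (p : R[X]) : ℕ → R[X]
  | 0 => X
  | n + 1 => (iter p n).comp p

theorem maj_iter {p : ℂ[X]} {P : ℝ[X]} (h : Maj p P) (n : ℕ) : Maj (iter p n) (iter P n) := by
  induction n with
  | zero => exact Maj.X'
  | succ n ih => exact ih.comp h

/-- near `0` a majorant with `P 0 = 0` and `P' 0 < ρ` is at most `ρ s` -/
theorem exists_small {P : ℝ[X]} (h0 : P.coeff 0 = 0) {ρ : ℝ} (h1 : P.coeff 1 < ρ) :
    ∃ s₀ : ℝ, 0 < s₀ ∧ ∀ s, 0 ≤ s → s ≤ s₀ → P.eval s ≤ ρ * s := by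
  have hP : P = X * P.divX := by
    have := P.divX_mul_X_add
    rw [h0, C_0, add_zero] at this
    rw [mul_comm]
    exact this.symm
  have hQ0 : P.divX.eval 0 = P.coeff 1 := by
    rw [← coeff_zero_eq_eval_zero, coeff_divX]
  have hcont : ContinuousAt (fun s : ℝ => P.divX.eval s) 0 := P.divX.continuous.continuousAt
  have hev : ∀ᶠ s in 𝓝 (0 : ℝ), P.divX.eval s < ρ := by
    refine hcont.eventually (gt_mem_nhds ?_)
    show P.divX.eval 0 < ρ
    rw [hQ0]; exact h1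
  obtain ⟨ε, hε, hball⟩ := Metric.eventually_nhds_iff.1 hev
  refine ⟨ε / 2, by positivity, fun s hs hs' => ?_⟩
  rw [hP, eval_mul, eval_X, mul_comm]
  have : P.divX.eval s < ρ := hball (by
    rw [Real.dist_eq, sub_zero, abs_of_nonneg hs]; linarith)
  exact mul_le_mul_of_nonneg_right this.le hs

theorem eval_iter_le {P : ℝ[X]} (hP : ∀ i, 0 ≤ P.coeff i) {ρ s₀ : ℝ} (hρ0 : 0 ≤ ρ) (hρ1 : ρ ≤ 1)
    (hs : ∀ s, 0 ≤ s → s ≤ s₀ → P.eval s ≤ ρ * s) (n : ℕ) :
    ∀ s, 0 ≤ s → s ≤ s₀ → (iter P n).eval s ≤ ρ ^ n * s := by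
  induction n with
  | zero => intro s _ _; simp [iter]
  | succ n ih =>
    intro s h0 h1
    have e : (iter P (n + 1)).eval s = (iter P n).eval (P.eval s) := by
      rw [iter, eval_comp]
    rw [e]
    have h2 : P.eval s ≤ ρ * s := hs s h0 h1
    have h3 : 0 ≤ P.eval s := eval_nonneg' hP h0
    have h4 : P.eval s ≤ s₀ := by nlinarith
    calc (iter P n).eval (P.eval s) ≤ ρ ^ n * P.eval s := ih _ h3 h4
      _ ≤ ρ ^ n * (ρ * s) := by gcongr
      _ = ρ ^ (n + 1) * s := by ring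

theorem iter_nonneg {P : ℝ[X]} (hP : ∀ i, 0 ≤ P.coeff i) (n : ℕ) {s : ℝ} (hs : 0 ≤ s) :
    0 ≤ (iter P n).eval s := by
  induction n generalizing s with
  | zero => simpa [iter] using hs
  | succ n ih =>
    rw [iter, eval_comp]
    exact ih (eval_nonneg' hP hs)

/-- bound of the powers of the iterates of `p` at `T`, applied to a vector on which `T` is
quasinilpotent -/
theorem decay {p : ℂ[X]} (h0 : p.coeff 0 = 0) (h1 : ‖p.coeff 1‖ < 1) :
    ∃ ρ : ℝ, 0 < ρ ∧ ρ < 1 ∧ ∃ s : ℝ, 0 < s ∧ ∀ (T : E →L[ℂ] E) (x : E) (B : ℝ), 0 ≤ B →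
      (∀ i, ‖(T ^ i) x‖ ≤ B * s ^ i) → ∀ n k : ℕ,
        ‖((aeval T (iter p n)) ^ k) x‖ ≤ B * (ρ ^ n * s) ^ k := by
  obtain ⟨ρ, hρ, hρ1⟩ := exists_between h1
  have hρ0 : 0 < ρ := (norm_nonneg _).trans_lt hρ
  obtain ⟨s₀, hs₀, hs⟩ := exists_small (P := absPoly p) (by rw [coeff_absPoly, h0, norm_zero])
    (ρ := ρ) (by rw [coeff_absPoly]; exact hρ)
  refine ⟨ρ, hρ0, hρ1, s₀, hs₀, fun T x B hB hx n k => ?_⟩
  have hnn : ∀ i, 0 ≤ (absPoly p).coeff i := (maj_abs p).nonneg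
  have h2 := eval_iter_le hnn hρ0.le hρ1.le hs n s₀ hs₀.le le_rfl
  have h3 : ((aeval T (iter p n)) ^ k) = aeval T ((iter p n) ^ k) := by rw [map_pow]
  rw [h3]
  refine (norm_aeval_le hx ((maj_iter (maj_abs p) n).pow k)).trans ?_
  rw [eval_pow]
  have h4 := iter_nonneg hnn n hs₀.le
  gcongr

/-- `‖T ^ n x‖ ^ (1 / n) → 0` implies geometric bounds with every ratio -/
theorem geom_bound {a : ℕ → ℝ} (ha : ∀ n, 0 ≤ a n)
    (h : Tendsto (fun n : ℕ => a n ^ (1 / (n : ℝ))) atTop (𝓝 0)) {s : ℝ} (hs : 0 < s) :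
    ∃ B : ℝ, 0 ≤ B ∧ ∀ n, a n ≤ B * s ^ n := by
  obtain ⟨N, hN⟩ := eventually_atTop.1 (h.eventually (gt_mem_nhds hs))
  refine ⟨1 + ∑ i ∈ Finset.range (N + 1), a i / s ^ i, ?_, fun n => ?_⟩
  · have : 0 ≤ ∑ i ∈ Finset.range (N + 1), a i / s ^ i :=
      Finset.sum_nonneg fun i _ => div_nonneg (ha i) (by positivity)
    linarith
  · have hsum : 0 ≤ ∑ i ∈ Finset.range (N + 1), a i / s ^ i :=
      Finset.sum_nonneg fun i _ => div_nonneg (ha i) (by positivity)
    by_cases hn : n < N + 1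
    · have h1 : a n / s ^ n ≤ ∑ i ∈ Finset.range (N + 1), a i / s ^ i :=
        Finset.single_le_sum (f := fun i => a i / s ^ i)
          (fun i _ => div_nonneg (ha i) (by positivity)) (Finset.mem_range.2 hn)
      have h2 : a n = a n / s ^ n * s ^ n := by field_simp
      rw [h2]
      gcongr
      linarith
    · have h1 := hN n (by omega)
      have hn0 : (n : ℝ) ≠ 0 := by
        have : n ≠ 0 := by omega
        exact_mod_cast this
      have h2 : a n = (a n ^ (1 / (n : ℝ))) ^ n := by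
        rw [← Real.rpow_natCast, ← Real.rpow_mul (ha n), one_div, inv_mul_cancel₀ hn0,
          Real.rpow_one]
      rw [h2]
      have h3 : (a n ^ (1 / (n : ℝ))) ^ n ≤ s ^ n := by
        have := Real.rpow_nonneg (ha n) (1 / (n : ℝ))
        gcongr
      have h4 : (0 : ℝ) < s ^ n := by positivity
      nlinarith

end Vale.Agent.P131
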