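import Vale.Agent.P131.Final

/-!
# P131: polynomials contracting in the majorant sense at a radius `s`
-/

open Filter Topology Polynomial

namespace Vale.Agent.P131

variable {E : Type*} [NormedAddCommGroup E] [NormedSpace ℂ E]

theorem absPoly_eval (p : ℂ[X]) (s : ℝ) :
    (absPoly p).eval s = ∑ i ∈ Finset.range (p.natDegree + 1), ‖p.coeff i‖ * s ^ i := by
  rw [absPoly, eval_finsetSum]
  simp

/-- decay of the iterates of `p` at `T` when `P s < s` for the majorant `P` of `p` -/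
theorem decay_at {p : ℂ[X]} (h0 : p.coeff 0 = 0) {s : ℝ} (hs : 0 < s)
    (h1 : ∑ i ∈ Finset.range (p.natDegree + 1), ‖p.coeff i‖ * s ^ i < s) :
    ∃ ρ : ℝ, 0 < ρ ∧ ρ < 1 ∧ ∀ (T : E →L[ℂ] E) (x : E) (B : ℝ), 0 ≤ B →
      (∀ i, ‖(T ^ i) x‖ ≤ B * s ^ i) → ∀ n k : ℕ,
        ‖((aeval T (iter p n)) ^ k) x‖ ≤ B * (ρ ^ n * s) ^ k := by
  have hnn : ∀ i, 0 ≤ (absPoly p).coeff i := (maj_abs p).nonneg
  have hP : absPoly p = X * (absPoly p).divX := by
    have := (absPoly p).divX_mul_X_add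
    rw [coeff_absPoly, h0, norm_zero, C_0, add_zero] at this
    rw [mul_comm]
    exact this.symm
  have hQnn : ∀ i, 0 ≤ (absPoly p).divX.coeff i := fun i => by
    rw [coeff_divX]; exact hnn _
  set Q := (absPoly p).divX with hQ
  have hQs : Q.eval s < 1 := by
    have h2 : (absPoly p).eval s < s := by rw [absPoly_eval]; exact h1
    rw [hP, eval_mul, eval_X] at h2
    by_contra hcon
    push Not at hcon
    nlinarith
  have hmono : ∀ t, 0 ≤ t → t ≤ s → Q.eval t ≤ Q.eval s := by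
    intro t ht hts
    rw [eval_eq_sum_range, eval_eq_sum_range]
    refine Finset.sum_le_sum fun i _ => ?_
    have := hQnn i
    gcongr
  set ρ : ℝ := max (Q.eval s) (1 / 2) with hρ
  have hρ0 : 0 < ρ := lt_of_lt_of_le (by norm_num) (le_max_right _ _)
  have hρ1 : ρ < 1 := max_lt hQs (by norm_num)
  have hcontr : ∀ t, 0 ≤ t → t ≤ s → (absPoly p).eval t ≤ ρ * t := by
    intro t ht hts
    rw [hP, eval_mul, eval_X, mul_comm]
    exact mul_le_mul_of_nonneg_right ((hmono t ht hts).trans (le_max_left _ _)) ht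
  refine ⟨ρ, hρ0, hρ1, fun T x B hB hx n k => ?_⟩
  have h2 := eval_iter_le hnn hρ0.le hρ1.le hcontr n s hs.le le_rfl
  have h3 : ((aeval T (iter p n)) ^ k) = aeval T ((iter p n) ^ k) := by rw [map_pow]
  rw [h3]
  refine (norm_aeval_le hx ((maj_iter (maj_abs p) n).pow k)).trans ?_
  rw [eval_pow]
  have h4 := iter_nonneg hnn n hs.le
  gcongr

/-- `T K = K p(T)`, with local spectral bound `s` -/
theorem unified_forward {T K : E →L[ℂ] E} (hT : T ≠ 0) (hK : K ≠ 0) (hKc : IsCompactOperator K)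
    (p : ℂ[X]) (h0 : p.coeff 0 = 0) (hTK : T * K = K * aeval T p) (s : ℝ) (hs : 0 < s)
    (h1 : ∑ i ∈ Finset.range (p.natDegree + 1), ‖p.coeff i‖ * s ^ i < s)
    (hx : ∃ x : E, x ≠ 0 ∧ ∃ B : ℝ, ∀ n : ℕ, ‖(T ^ n) x‖ ≤ B * s ^ n) :
    HasHyperinvariant T := by
  obtain ⟨x, hx0, B, hbd⟩ := hx
  have hB : 0 ≤ B := by
    have := hbd 0
    simp only [pow_zero, mul_one] at this
    exact (norm_nonneg _).trans this
  obtain ⟨ρ, hρ, hρ1, hdec⟩ := decay_at (E := E) h0 hs h1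
  refine forward hT hK hKc (fun n => aeval T (iter p n)) (by simp [iter])
    (fun n A hA => aeval_comm_of hA _) (fun n => ?_) ⟨x, hx0, fun c hc => ?_⟩
  · have e : aeval T (iter p (n + 1)) = aeval (aeval T p) (iter p n) := by
      rw [iter, aeval_comp]
    rw [e]
    exact aeval_semiconj hTK _
  · obtain ⟨k, hk⟩ := exists_k hc hρ hρ1
    exact ⟨k, tendsto_geom hc hρ k hk (fun n => norm_nonneg _)
      (fun n => hdec T x B hB hbd n k)⟩

/-- `p(T) K = K T`, with spectral bound `s` -/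
theorem unified_backward {T K : E →L[ℂ] E} (hT : T ≠ 0) (hK : K ≠ 0) (hKc : IsCompactOperator K)
    (p : ℂ[X]) (h0 : p.coeff 0 = 0) (hTK : aeval T p * K = K * T) (s : ℝ) (hs : 0 < s)
    (h1 : ∑ i ∈ Finset.range (p.natDegree + 1), ‖p.coeff i‖ * s ^ i < s)
    (hx : ∃ B : ℝ, ∀ n : ℕ, ‖T ^ n‖ ≤ B * s ^ n) :
    HasHyperinvariant T := by
  obtain ⟨B, hbd⟩ := hx
  have hB : 0 ≤ B := by
    have := hbd 0
    simp only [pow_zero, mul_one] at this
    exact (norm_nonneg _).trans this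
  obtain ⟨ρ, hρ, hρ1, hdec⟩ := decay_at (E := E) h0 hs h1
  refine backward hT hK hKc (fun n => aeval T (iter p n)) (by simp [iter])
    (fun n A hA => aeval_comm_of hA _) (fun n => ?_) (fun c hc => ?_)
  · have e : aeval T (iter p (n + 1)) = aeval (aeval T p) (iter p n) := by
      rw [iter, aeval_comp]
    rw [e]
    exact aeval_semiconj hTK _
  · obtain ⟨k, hk⟩ := exists_k hc hρ hρ1
    refine ⟨k, tendsto_geom (B := B) (s := s) hc hρ k hk (fun n => norm_nonneg _) (fun n => ?_)⟩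
    refine ContinuousLinearMap.opNorm_le_bound _ (by positivity) (fun x => ?_)
    have := hdec T x (B * ‖x‖) (by positivity) (fun i => by
      calc ‖(T ^ i) x‖ ≤ ‖T ^ i‖ * ‖x‖ := ContinuousLinearMap.le_opNorm _ _
        _ ≤ (B * s ^ i) * ‖x‖ := by gcongr; exact hbd i
        _ = B * ‖x‖ * s ^ i := by ring) n k
    calc ‖((aeval T (iter p n)) ^ k) x‖ ≤ B * ‖x‖ * (ρ ^ n * s) ^ k := this
      _ = B * (ρ ^ n * s) ^ k * ‖x‖ := by ring

end Vale.Agent.P131
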